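import Vale.Agent.P007.Main

/-!
P007 (higher-dimensional Duke problem): equidistribution of torus packets fails in every composite
degree `n ≥ 4`, even for maximal orders, and a general necessary condition for equidistribution.
-/

namespace Vale.Agent.Results.P007.CompositeDegree

open MeasureTheory Filter NumberField Module Vale.Agent.P007

/-- (1) For every composite `n ≥ 4` there is a sequence of maximal orders `O_i` in totally real
fields `K_i` of degree `n` with `|Disc O_i| → ∞`, such that for all orderings `σ_i` of the real
embeddings no subsequence of the packet measures `μ_{O_i,σ_i}` (nor of any other measures living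
on the packets) converges to an invariant probability measure `m` on `X_n`, even when tested only
against `C_c(X_n)`.

(2) For every `n ≥ 2` and every sequence of orders `O_i` in totally real fields of degree `n`: if
the packet measures (for some orderings) converge to some `m`, then for every `B` all but finitely
many `O_i` contain no element other than rational integers with all real conjugates bounded
by `B`. -/
theorem result :
    (∀ n : ℕ, 4 ≤ n → ¬ n.Prime → ∃ s : ℕ → RealOrder n,
      (∀ i, (s i).IsMaximalOrder) ∧ (∀ i, Nonempty (s i).Ordering) ∧
      Tendsto (fun i => (s i).disc) atTop atTop ∧ NoSubsequenceConverges s) ∧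
    (∀ n : ℕ, 2 ≤ n → ∀ s : ℕ → RealOrder n, SomeConverges s → NoSmallElements s) := by
  constructor
  · intro n hn hc
    obtain ⟨K, h1, h2, h3, h4, h5, h6, h7, h8⟩ := composite_counterexample n hn hc
    refine ⟨fun i => ⟨K i, h3 i, h4 i, integralClosure ℤ (K i), h6 i⟩, fun i => rfl, h5, h7, ?_⟩
    intro σ μ hμ m hm φ hφ
    exact h8 σ m hm μ hμ φ hφ
  · rintro n hn s ⟨σ, μ, hμ, m, hm, hconv⟩ B
    have h := necessary_condition hn (fun i => (s i).K) (fun i => (s i).O)
      (fun i => (s i).isOrder) σ m hm μ hμ hconv B
    refine h.mono fun i hi x hx hB => hi x hx fun j => hB _

end Vale.Agent.Results.P007.CompositeDegree
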